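import Vale.Agent.P088F.TC2

/-! P088: existence of the Riemannian volume.
Hints: `ν p` = the right hand side of `IsVol` at `p`. Key: for a measurable `s ⊆ source p ∩ source q`, `ν p s = ν q s`:
`lintegral_image_eq_lintegral_abs_det_fderiv_mul` for the transition map `e = extChartAt I q ∘ (extChartAt I p).symm` on the
measurable set `extChartAt I p '' s` with derivative `D = tangentCoordChange`-type map (`hasFDerivWithinAt_tangentCoordChange`),
`fr I p z v = fr I q (e z) (D v)` (`fr_eq` in P088/Chart and `Trivialization.symmL` / `coordChangeL`, or the chain rule for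
`mfderivWithin`), so `gm g p z = Dᵀ * gm g q (e z) * D`. Then take a finite cover by sources (see `IsVol.unique` in P088/Bridge),
`disjointed` pieces `D i`, `μ = ∑ i, (ν (p i)).restrict (D i)`. -/

open MeasureTheory Set Filter Bundle Metric Topology Matrix
open scoped Manifold ContDiff ENNReal

noncomputable section

namespace Vale.Agent.P088.Rg

open Gl

variable {n : ℕ} {H : Type} [TopologicalSpace H] {I : ModelWithCorners ℝ (Ec n) H}
  {M : Type} [TopologicalSpace M] [ChartedSpace H M] [IsManifold I ∞ M] [T2Space M] [CompactSpace M]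
  [MeasurableSpace M] [BorelSpace M]

theorem RVol_det (b : Ec n →L[ℝ] Ec n →L[ℝ] ℝ) (D : Ec n →L[ℝ] Ec n) :
    √(gram fun v w => b (D v) (D w)).det = |D.det| * √(gram fun v w => b v w).det := by
  obtain ⟨P, hP, hd⟩ : ∃ P : Matrix (Fin n) (Fin n) ℝ, (∀ k i, P k i = D (bv i) k) ∧
      P.det = D.det := by
    refine ⟨LinearMap.toMatrix (EuclideanSpace.basisFun (Fin n) ℝ).toBasis
      (EuclideanSpace.basisFun (Fin n) ℝ).toBasis D.toLinearMap, fun k i => ?_,
      LinearMap.det_toMatrix _ _⟩
    simp [LinearMap.toMatrix_apply, bv]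
  have e : ∀ i, D (bv i) = ∑ k, P k i • bv k := fun i => by
    simp only [hP]
    exact bv_sum _
  have e1 : (gram fun v w => b (D v) (D w)) = Pᵀ * (gram fun v w => b v w) * P := by
    ext i j
    simp only [gram, of_apply, e, map_sum, map_smul, _root_.sum_apply, _root_.smul_apply,
      smul_eq_mul, Matrix.mul_apply, transpose_apply, Finset.mul_sum, Finset.sum_mul]
    refine Finset.sum_congr rfl fun k _ => Finset.sum_congr rfl fun l _ => ?_
    ring
  rw [e1, det_mul, det_mul, det_transpose, hd, mul_right_comm, Real.sqrt_mul (mul_self_nonneg _),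
    Real.sqrt_mul_self_eq_abs]

/-- The density in the chart at `p`, as a function on the manifold. -/
def RVol_rho (g : Met I M) (p x : M) : ℝ :=
  √(gram fun v w => g.inner x (tangentCoordChange I p x x v) (tangentCoordChange I p x x w)).det

/-- The volume in the chart at `p`. -/
def RVol_nu (g : Met I M) (p : M) : Measure M := Measure.map (extChartAt I p).symm
  ((volume.restrict (extChartAt I p).target).withDensity fun z => ENNReal.ofReal √(gm g p z).det)

omit [T2Space M] [CompactSpace M] [MeasurableSpace M] [BorelSpace M] in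
theorem RVol_gm (g : Met I M) {p : M} {z : Ec n} (hz : z ∈ (extChartAt I p).target) :
    √(gm g p z).det = RVol_rho g p ((extChartAt I p).symm z) := by
  have e : fr I p z = tangentCoordChange I p ((extChartAt I p).symm z) ((extChartAt I p).symm z) :=
    (fr_eq hz).trans (TangentBundle.symmL_trivializationAt_eq_core (symm_mem hz))
  unfold RVol_rho
  rw [← e]
  rfl

omit [T2Space M] [CompactSpace M] [MeasurableSpace M] [BorelSpace M] in
theorem RVol_tr (g : Met I M) {p q x : M} (hp : x ∈ (extChartAt I p).source)
    (hq : x ∈ (extChartAt I q).source) :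
    RVol_rho g p x = |(tangentCoordChange I p q x).det| * RVol_rho g q x := by
  have e : ∀ v, tangentCoordChange I p x x v =
      tangentCoordChange I q x x (tangentCoordChange I p q x v) := fun v =>
    (tangentCoordChange_comp ⟨⟨hp, hq⟩, mem_extChartAt_source x⟩).symm
  let b : Ec n →L[ℝ] Ec n →L[ℝ] ℝ := g.inner x
  have := RVol_det (b.bilinearComp (tangentCoordChange I q x x) (tangentCoordChange I q x x))
    (tangentCoordChange I p q x)
  unfold RVol_rho
  simp only [e]
  exact this

omit [T2Space M] [CompactSpace M] in
theorem RVol_app (g : Met I M) (p : M) {s : Set M} (hs : MeasurableSet s) : RVol_nu g p s =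
    ∫⁻ z in (extChartAt I p).target ∩ (extChartAt I p).symm ⁻¹' s,
      ENNReal.ofReal √(gm g p z).det := by
  rw [RVol_nu, Measure.map_apply_of_aemeasurable (symm_aem p _) hs, withDensity_apply',
    Measure.restrict_restrict' (target_meas p), inter_comm]

omit [IsManifold I ∞ M] [T2Space M] [CompactSpace M] in
theorem RVol_meas (p : M) {s : Set M} (hs : MeasurableSet s) :
    MeasurableSet ((extChartAt I p).target ∩ (extChartAt I p).symm ⁻¹' s) := by
  classical
  have h : Measurable ((extChartAt I p).target.piecewise (extChartAt I p).symm fun _ => p) :=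
    (continuousOn_extChartAt_symm p).measurable_piecewise continuousOn_const (target_meas p)
  have e : (extChartAt I p).target ∩ (extChartAt I p).symm ⁻¹' s = (extChartAt I p).target ∩
      ((extChartAt I p).target.piecewise (extChartAt I p).symm fun _ => p) ⁻¹' s := by
    ext z
    refine and_congr_right fun hz => ?_
    rw [mem_preimage, mem_preimage, piecewise_eq_of_mem _ _ _ hz]
  exact e ▸ (target_meas p).inter (h hs)

omit [T2Space M] [CompactSpace M] in
theorem RVol_eq (g : Met I M) {p q : M} {s : Set M} (hs : MeasurableSet s)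
    (hp : s ⊆ (extChartAt I p).source) (hq : s ⊆ (extChartAt I q).source) :
    RVol_nu g q s = RVol_nu g p s := by
  have e : (extChartAt I q).target ∩ (extChartAt I q).symm ⁻¹' s =
      (extChartAt I q ∘ (extChartAt I p).symm) ''
        ((extChartAt I p).target ∩ (extChartAt I p).symm ⁻¹' s) := by
    rw [← PartialEquiv.image_eq_target_inter_inv_preimage _ hq,
      ← PartialEquiv.image_eq_target_inter_inv_preimage _ hp, image_comp,
      PartialEquiv.symm_image_image_of_subset_source _ hp]
  rw [RVol_app g q hs, RVol_app g p hs, e, lintegral_image_eq_lintegral_abs_det_fderiv_mul volume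
    (RVol_meas p hs) (f' := fun z => tangentCoordChange I p q ((extChartAt I p).symm z))]
  · refine setLIntegral_congr_fun (RVol_meas p hs) fun z hz => ?_
    simp only [Function.comp_apply]
    rw [RVol_gm g hz.1, RVol_gm g ((extChartAt I q).map_source (hq hz.2)),
      (extChartAt I q).left_inv (hq hz.2), RVol_tr g (hp hz.2) (hq hz.2),
      ENNReal.ofReal_mul (abs_nonneg _)]
  · intro z hz
    have := hasFDerivWithinAt_tangentCoordChange (I := I) (x := p) (y := q) ⟨hp hz.2, hq hz.2⟩
    rw [(extChartAt I p).right_inv hz.1] at this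
    exact this.mono fun y hy => extChartAt_target_subset_range p hy.1
  · intro z hz z' hz' h
    exact (extChartAt I p).symm.injOn hz.1 hz'.1 ((extChartAt I q).injOn (hq hz.2) (hq hz'.2) h)

theorem exists_vol (g : Met I M) : ∃ μ : Measure M, IsVol g μ := by
  rcases isEmpty_or_nonempty M with h0 | ⟨⟨p0⟩⟩
  · exact ⟨0, fun p => h0.elim p⟩
  obtain ⟨t, ht⟩ := isCompact_univ.elim_finite_subcover (fun p : M => (extChartAt I p).source)
    isOpen_extChartAt_source fun x _ => mem_iUnion.2 ⟨x, mem_extChartAt_source x⟩
  obtain ⟨f, hf⟩ := (t.countable_toSet.insert p0).exists_eq_range (insert_nonempty _ _)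
  have hc : ⋃ i, disjointed (fun i => (extChartAt I (f i)).source) i = univ := by
    rw [iUnion_disjointed, eq_univ_iff_forall]
    intro x
    obtain ⟨q, hq, hx⟩ := mem_iUnion₂.1 (ht (mem_univ x))
    obtain ⟨i, rfl⟩ : q ∈ range f := hf ▸ mem_insert_of_mem p0 hq
    exact mem_iUnion.2 ⟨i, hx⟩
  have hm : ∀ i, MeasurableSet (disjointed (fun i => (extChartAt I (f i)).source) i) :=
    MeasurableSet.disjointed fun i => (isOpen_extChartAt_source (f i)).measurableSet
  refine ⟨Measure.sum fun i => (RVol_nu g (f i)).restrict
    (disjointed (fun i => (extChartAt I (f i)).source) i), fun p => ?_⟩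
  ext s hs
  have h1 := hs.inter (isOpen_extChartAt_source (I := I) p).measurableSet
  have h2 : RVol_nu g p s = RVol_nu g p (s ∩ (extChartAt I p).source) := by
    rw [RVol_app g p hs, RVol_app g p h1]
    congr 2
    ext z
    exact and_congr_right fun hz => ⟨fun h => ⟨h, (extChartAt I p).map_target hz⟩, fun h => h.1⟩
  change _ = RVol_nu g p s
  rw [Measure.restrict_apply hs, Measure.sum_apply _ h1, h2,
    ← inter_univ (s ∩ (extChartAt I p).source), ← hc, inter_iUnion, measure_iUnion
      ((disjoint_disjointed _).mono fun i j h => h.mono inter_subset_right inter_subset_right)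
      fun i => h1.inter (hm i), ← inter_iUnion, hc, inter_univ]
  refine tsum_congr fun i => ?_
  rw [Measure.restrict_apply h1]
  exact RVol_eq g (h1.inter (hm i)) (fun x hx => hx.1.2) fun x hx => disjointed_subset _ i hx.2

end Vale.Agent.P088.Rg
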